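import Vale.Agent.Lib.P063.Numerics

namespace Vale.Agent.Results.P063.HypergraphWidthLowerBound

open Vale.Agent.Lib.P063 Finset

/-- For every uniformity `r ≥ 2` there is `c > 0` such that for every `0 < ε < 1/2` there is
`n0` such that for every `n ≥ n0` some nontrivial increasing `r`-uniform hypergraph property
on `n` vertices has threshold width `w_ε ≥ c log((1-ε)/ε) (log n)^{-r/(r-1)}`. -/
theorem result (r : ℕ) (hr : 2 ≤ r) :
    ∃ c : ℝ, 0 < c ∧ ∀ ε : ℝ, 0 < ε → ε < 1 / 2 → ∃ n0 : ℕ, ∀ n : ℕ, n0 ≤ n →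
      ∃ P : Finset (Finset (Edge n r)),
        IsProperty P ∧ IsIncreasing P ∧ IsNontrivial P ∧
        c * Real.log ((1 - ε) / ε) * (Real.log n) ^ (-((r : ℝ) / ((r : ℝ) - 1))) ≤ width ε P := by
  obtain ⟨B, hB, hnum⟩ := numerics r hr
  refine ⟨1 / (2 * B), by positivity, ?_⟩
  intro ε hε hε'
  obtain ⟨n0, hn0⟩ := hnum ε hε
  have hbase : 1 < (1 - ε) / ε := by
    rw [lt_div_iff₀ hε]
    linarith
  have hlog : 0 < Real.log ((1 - ε) / ε) := Real.log_pos hbase
  refine ⟨n0, ?_⟩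
  intro n hn
  obtain ⟨k, hrk, hkn, hfirst, hchoose, hL⟩ := hn0 n hn
  refine ⟨cliqueProp n r k, cliqueProp_isProperty n r k, cliqueProp_increasing n r k,
    cliqueProp_nontrivial n r k hrk hkn, ?_⟩
  have hm : 1 ≤ k.choose r := Nat.choose_pos hrk
  have hmpos : (0 : ℝ) < (k.choose r : ℝ) := by exact_mod_cast hm
  have hsmall : ∀ p : ℝ, 0 ≤ p → p < 1 / 2 → mu p (cliqueProp n r k) < ε := by
    intro p hp0 hp
    have h1 := cliqueProp_mu_le n r k p hp0 (by linarith)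
    have h2 : p ^ (k.choose r) ≤ (1 / 2 : ℝ) ^ (k.choose r) := pow_le_pow_left₀ hp0 hp.le _
    have h3 : (n.choose k : ℝ) * p ^ (k.choose r) ≤ (n.choose k : ℝ) * (1 / 2 : ℝ) ^ (k.choose r) :=
      mul_le_mul_of_nonneg_left h2 (by positivity)
    linarith
  have hw := width_ge_explicit (cliqueProp n r k) (cliqueProp_increasing n r k)
    (cliqueProp_full n r k hkn) (k.choose r) hm (cliqueProp_generated n r k) ε hε hε'
    (1 / 2) (by norm_num) hsmall
  refine le_trans ?_ hw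
  have hpowpos : 0 < (Real.log n) ^ ((r : ℝ) / ((r : ℝ) - 1)) := Real.rpow_pos_of_pos hL _
  rw [Real.rpow_neg hL.le]
  have h5 : (k.choose r : ℝ) ≤ B * (Real.log n) ^ ((r : ℝ) / ((r : ℝ) - 1)) := hchoose
  have hBL : 0 < B * (Real.log n) ^ ((r : ℝ) / ((r : ℝ) - 1)) := by positivity
  calc 1 / (2 * B) * Real.log ((1 - ε) / ε) * ((Real.log n) ^ ((r : ℝ) / ((r : ℝ) - 1)))⁻¹
      = 1 / 2 * Real.log ((1 - ε) / ε) / (B * (Real.log n) ^ ((r : ℝ) / ((r : ℝ) - 1))) := by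
        field_simp
    _ ≤ 1 / 2 * Real.log ((1 - ε) / ε) / (k.choose r : ℝ) :=
        div_le_div_of_nonneg_left (by positivity) hmpos h5

end Vale.Agent.Results.P063.HypergraphWidthLowerBound
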