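import Vale.Agent.Lib.P063.Width

namespace Vale.Agent.Results.P063.MintermWidthBound

open Vale.Agent.Lib.P063 Finset

/-- A general lower bound for the threshold width.  Let `P` be a nonempty increasing family of
subsets of a finite set `E` in which every member contains a member with at most `m ≥ 1`
elements, and let `0 < ε < 1/2`.  Then `p_{1-ε}(P) ≥ ((1-ε)/ε)^{1/m} p_ε(P)`, so
`w_ε(P) ≥ (((1-ε)/ε)^{1/m} - 1) p_ε(P) ≥ p_ε(P) log((1-ε)/ε) / m`. -/
theorem result {E : Type*} [Fintype E] [DecidableEq E] (P : Finset (Finset E))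
    (hinc : IsIncreasing P) (hne : P.Nonempty) (m : ℕ) (hm : 1 ≤ m)
    (hgen : ∀ H ∈ P, ∃ M ∈ P, M ⊆ H ∧ M.card ≤ m) (ε : ℝ) (hε : 0 < ε) (hε' : ε < 1 / 2) :
    (((1 - ε) / ε) ^ (1 / (m : ℝ)) - 1) * pcrit ε P ≤ width ε P ∧
      pcrit ε P * Real.log ((1 - ε) / ε) / (m : ℝ) ≤ width ε P := by
  obtain ⟨H0, hH0⟩ := hne
  have hfull : (univ : Finset E) ∈ P := hinc H0 hH0 univ (Finset.subset_univ _)
  have h1 := width_ge_of_generated P hinc hfull m hm hgen ε hε hε'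
  refine ⟨h1, ?_⟩
  have hp0 : 0 ≤ pcrit ε P := by
    unfold pcrit
    apply le_csInf
    · exact ⟨1, by norm_num, le_refl _, by rw [mu_one P hfull]; linarith⟩
    · intro q hq
      exact hq.1
  have hmpos : (0 : ℝ) < (m : ℝ) := by exact_mod_cast hm
  have hbase : 1 < (1 - ε) / ε := by
    rw [lt_div_iff₀ hε]
    linarith
  have hbpos : 0 < (1 - ε) / ε := by linarith
  have h3 : Real.log ((1 - ε) / ε) / (m : ℝ) ≤ ((1 - ε) / ε) ^ (1 / (m : ℝ)) - 1 := by
    rw [Real.rpow_def_of_pos hbpos]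
    have := Real.add_one_le_exp (Real.log ((1 - ε) / ε) * (1 / (m : ℝ)))
    have e : Real.log ((1 - ε) / ε) * (1 / (m : ℝ)) = Real.log ((1 - ε) / ε) / (m : ℝ) := by
      ring
    rw [e] at this ⊢
    linarith
  calc pcrit ε P * Real.log ((1 - ε) / ε) / (m : ℝ)
      = (Real.log ((1 - ε) / ε) / (m : ℝ)) * pcrit ε P := by ring
    _ ≤ (((1 - ε) / ε) ^ (1 / (m : ℝ)) - 1) * pcrit ε P := mul_le_mul_of_nonneg_right h3 hp0
    _ ≤ width ε P := h1

end Vale.Agent.Results.P063.MintermWidthBound
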